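import Crest.Agent.Helper31.S0010.Deriv

/-!
# S0010, block AS1: the exponent of the line lemma is a global constant, and it can be normalised

Setting: fields `K`, `L` of characteristic `p`, a map `t : K → L` ("a representative of `Θ[u]`")
and the conclusion of the line lemma for every `p`-independent pair, with an exponent `m` that
may depend on the pair (`LineData`).  We show that the exponent is the same for all pairs
(`exists_global_exp`) and that `u ↦ t u ^ m'` with `m * m' ≡ 1 [MOD p]` satisfies the same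
hypotheses with exponent `1` (`LineData.exists_normLine`).
-/

set_option autoImplicit false

namespace Crest.Agent.Helper47.S0010

open Crest.Agent.Helper31.S0010

variable {K L : Type*} [Field K] [Field L] (p : ℕ) [Fact p.Prime] [CharP K p] [CharP L p]

/-- `a ~ b`: equal up to a non-zero `p`-th power factor. -/
def PRel (a b : L) : Prop := ∃ e ∈ pPow (L := L) p, e ≠ 0 ∧ a = e * b

section PRelBasics

variable {p}

theorem PRel.refl (a : L) : PRel p a a := ⟨1, one_mem _, one_ne_zero, (one_mul a).symm⟩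

theorem PRel.symm {a b : L} (h : PRel p a b) : PRel p b a := by
  obtain ⟨e, he, he0, rfl⟩ := h
  exact ⟨e⁻¹, inv_mem he, inv_ne_zero he0, by field_simp⟩

theorem PRel.trans {a b c : L} (h : PRel p a b) (h' : PRel p b c) : PRel p a c := by
  obtain ⟨e, he, he0, rfl⟩ := h
  obtain ⟨e', he', he'0, rfl⟩ := h'
  exact ⟨e * e', mul_mem he he', mul_ne_zero he0 he'0, by ring⟩

theorem PRel.mul {a b c d : L} (h : PRel p a b) (h' : PRel p c d) : PRel p (a * c) (b * d) := by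
  obtain ⟨e, he, he0, rfl⟩ := h
  obtain ⟨e', he', he'0, rfl⟩ := h'
  exact ⟨e * e', mul_mem he he', mul_ne_zero he0 he'0, by ring⟩

theorem PRel.pow {a b : L} (h : PRel p a b) (n : ℕ) : PRel p (a ^ n) (b ^ n) := by
  obtain ⟨e, he, he0, rfl⟩ := h
  exact ⟨e ^ n, pow_mem he n, pow_ne_zero n he0, by ring⟩

theorem PRel.eq_zero_iff {a b : L} (h : PRel p a b) : a = 0 ↔ b = 0 := by
  obtain ⟨e, _, he0, rfl⟩ := h
  simp [he0]

theorem PRel.mem_pPow_iff {a b : L} (h : PRel p a b) : a ∈ pPow (L := L) p ↔ b ∈ pPow (L := L) p := by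
  obtain ⟨e, he, he0, rfl⟩ := h
  constructor
  · intro hab
    have : b = e⁻¹ * (e * b) := by field_simp
    rw [this]
    exact mul_mem (inv_mem he) hab
  · intro hb
    exact mul_mem he hb

theorem prel_mul_left {e : L} (he : e ∈ pPow (L := L) p) (he0 : e ≠ 0) (b : L) : PRel p (e * b) b :=
  ⟨e, he, he0, rfl⟩

theorem PRel.mem_pAdj {a b x : L} (h : PRel p a b) (hb : b ∈ pAdj p x) : a ∈ pAdj p x := by
  obtain ⟨e, he, _, rfl⟩ := h
  exact mul_mem (pPow_le_pAdj p x he) hb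

theorem PRel.mem_pAdj_iff {a b x : L} (h : PRel p a b) : a ∈ pAdj p x ↔ b ∈ pAdj p x :=
  ⟨fun ha => h.symm.mem_pAdj ha, fun hb => h.mem_pAdj hb⟩

/-- `L^p(a) ≤ L^p(b)` as soon as `a ∈ L^p(b)`. -/
theorem pAdj_le_of_mem {a b : L} (h : a ∈ pAdj p b) : pAdj p a ≤ pAdj p b :=
  adj_le (pPow_le_pAdj p b) h

theorem PRel.pAdj_eq {a b : L} (h : PRel p a b) : pAdj p a = pAdj p b :=
  le_antisymm (pAdj_le_of_mem (h.mem_pAdj (self_mem_pAdj p b)))
    (pAdj_le_of_mem (h.symm.mem_pAdj (self_mem_pAdj p a)))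

/-- If `n ≡ 1 [MOD p]` then `z ^ n ~ z`. -/
theorem prel_pow_of_mod {n : ℕ} (hn : n % p = 1) (z : L) : PRel p (z ^ n) z := by
  have hn' : n = p * (n / p) + 1 := by
    have := Nat.div_add_mod n p
    omega
  by_cases hz : z = 0
  · subst hz
    refine ⟨1, one_mem _, one_ne_zero, ?_⟩
    rw [hn', pow_succ]
    simp
  · refine ⟨(z ^ (n / p)) ^ p, pow_mem_pPow p _, pow_ne_zero _ (pow_ne_zero _ hz), ?_⟩
    conv_lhs => rw [hn']
    rw [pow_succ, pow_mul, ← pow_mul, ← pow_mul, mul_comm p]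

/-- If `0 < j < p` and `x ^ j` is a `p`-th power, so is `x`. -/
theorem mem_pPow_of_pow_mem {x : L} {j : ℕ} (hj : 0 < j) (hjp : j < p)
    (h : x ^ j ∈ pPow (L := L) p) : x ∈ pPow (L := L) p := by
  have hp : p.Prime := Fact.out
  have hcop : Nat.Coprime j p := (Nat.coprime_of_lt_prime hj.ne' hjp hp).symm
  obtain ⟨a, -, ha⟩ := Nat.exists_mul_mod_eq_one_of_coprime hcop hp.one_lt
  have h1 : PRel p ((x ^ j) ^ a) x := by
    rw [← pow_mul]
    exact prel_pow_of_mod ha x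
  exact h1.mem_pPow_iff.1 (pow_mem h a)

end PRelBasics

/-! ### The tiny form of (PL) -/

section PL

variable {p}

/-- Logarithmic derivatives: if `a ^ m = e * b ^ m'` with `e` a `p`-th power and `a, b, e ≠ 0`,
then `m * D a * b = m' * D b * a`. -/
theorem logderiv_eq (D : Derivation ℤ L L) {a b e : L} {m m' : ℕ} (he : e ∈ pPow (L := L) p)
    (ha : a ≠ 0) (hb : b ≠ 0) (he0 : e ≠ 0) (h : a ^ m = e * b ^ m') :
    (m : L) * D a * b = (m' : L) * D b * a := by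
  have hDe : D e = 0 := deriv_eq_zero_of_mem_pPow p D he
  have h1 : D (a ^ m) = D (e * b ^ m') := by rw [h]
  rw [Derivation.leibniz_pow, Derivation.leibniz, Derivation.leibniz_pow, hDe] at h1
  simp only [smul_eq_mul, nsmul_eq_mul, mul_zero, add_zero] at h1
  -- h1 : m * (a ^ (m - 1) * D a) = e * (m' * (b ^ (m' - 1) * D b))
  rcases Nat.eq_zero_or_pos m with hm | hm
  · subst hm
    rcases Nat.eq_zero_or_pos m' with hm' | hm'
    · subst hm'; simp
    · -- a ^ 0 = e * b ^ m'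
      obtain ⟨k, rfl⟩ : ∃ k, m' = k + 1 := ⟨m' - 1, by omega⟩
      simp only [Nat.cast_zero, zero_mul, Nat.add_sub_cancel] at h1 ⊢
      have h2 : ((k + 1 : ℕ) : L) * (b ^ k * D b) = 0 := by
        rcases mul_eq_zero.1 h1.symm with h3 | h3
        · exact absurd h3 he0
        · exact h3
      have h3 : ((k + 1 : ℕ) : L) * D b = 0 := by
        have : b ^ k * (((k + 1 : ℕ) : L) * D b) = 0 := by rw [← h2]; ring
        rcases mul_eq_zero.1 this with h4 | h4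
        · exact absurd h4 (pow_ne_zero _ hb)
        · exact h4
      rw [h3, zero_mul]
  · obtain ⟨k, rfl⟩ : ∃ k, m = k + 1 := ⟨m - 1, by omega⟩
    rcases Nat.eq_zero_or_pos m' with hm' | hm'
    · subst hm'
      simp only [Nat.cast_zero, zero_mul, Nat.add_sub_cancel, mul_zero] at h1 ⊢
      have h3 : ((k + 1 : ℕ) : L) * D a = 0 := by
        have : a ^ k * (((k + 1 : ℕ) : L) * D a) = 0 := by rw [← h1]; ring
        rcases mul_eq_zero.1 this with h4 | h4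
        · exact absurd h4 (pow_ne_zero _ ha)
        · exact h4
      rw [h3, zero_mul]
    · obtain ⟨k', rfl⟩ : ∃ k', m' = k' + 1 := ⟨m' - 1, by omega⟩
      simp only [Nat.add_sub_cancel] at h1
      have hne : e * b ^ k' * a ^ k ≠ 0 :=
        mul_ne_zero (mul_ne_zero he0 (pow_ne_zero _ hb)) (pow_ne_zero _ ha)
      apply mul_left_cancel₀ hne
      have h2 : a ^ (k + 1) = e * b ^ (k' + 1) := h
      calc e * b ^ k' * a ^ k * (((k + 1 : ℕ) : L) * D a * b)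
          = (((k + 1 : ℕ) : L) * (a ^ k * D a)) * (e * b ^ (k' + 1)) := by ring
        _ = (e * (((k' + 1 : ℕ) : L) * (b ^ k' * D b))) * a ^ (k + 1) := by rw [h1, h2]
        _ = e * b ^ k' * a ^ k * (((k' + 1 : ℕ) : L) * D b * a) := by ring

/-- **(PL), the form used for A1.** If `P ∉ L^p`, `P ^ m ~ P' ^ m'` and
`(P + 1) ^ m ~ (P' + 1) ^ m'` with `0 < m, m' < p`, then `m = m'`. -/
theorem exp_unique {P P' : L} {m m' : ℕ} (hm : 0 < m) (hmp : m < p) (hm' : 0 < m') (hm'p : m' < p)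
    (hP : P ∉ pPow (L := L) p) (h0 : PRel p (P ^ m) (P' ^ m'))
    (h1 : PRel p ((P + 1) ^ m) ((P' + 1) ^ m')) : m = m' := by
  have hp : p.Prime := Fact.out
  have hP0 : P ≠ 0 := fun h => hP (h ▸ zero_mem _)
  have hP1 : P + 1 ≠ 0 := by
    intro h
    apply hP
    have : P = -1 := by linear_combination h
    rw [this]
    exact neg_mem (one_mem _)
  have hP'0 : P' ≠ 0 := by
    intro h
    have := h0.eq_zero_iff.2 (by rw [h]; exact zero_pow hm'.ne')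
    exact hP0 (pow_eq_zero_iff hm.ne' |>.1 this)
  have hP'1 : P' + 1 ≠ 0 := by
    intro h
    have := h1.eq_zero_iff.2 (by rw [h]; exact zero_pow hm'.ne')
    exact hP1 (pow_eq_zero_iff hm.ne' |>.1 this)
  obtain ⟨D, hDE, hDP⟩ := exists_derivation_of_notMem p (pPow (L := L) p) (pow_mem_pPow p) hP
  obtain ⟨e, he, he0, h0e⟩ := h0
  obtain ⟨e', he', he'0, h1e⟩ := h1
  have e1 := logderiv_eq D he hP0 hP'0 he0 h0e
  have e2 := logderiv_eq D he' hP1 hP'1 he'0 h1e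
  have hD1 : D (P + 1) = 1 := by rw [map_add, hDP, Derivation.map_one_eq_zero, add_zero]
  have hD1' : D (P' + 1) = D P' := by rw [map_add, Derivation.map_one_eq_zero, add_zero]
  rw [hDP] at e1
  rw [hD1, hD1'] at e2
  -- e1 : m * 1 * P' = m' * D P' * P ;  e2 : m * 1 * (P' + 1) = m' * D P' * (P + 1)
  have hmL : (m : L) ≠ 0 := by
    intro h
    have := (CharP.cast_eq_zero_iff L p m).1 h
    exact absurd (Nat.le_of_dvd hm this) (by omega)
  have e3 : (m : L) = (m' : L) * D P' := by linear_combination e2 - e1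
  have hPP : P' = P := by
    have : (m : L) * P' = (m : L) * P := by
      rw [e3] at e1 ⊢
      linear_combination e1
    exact mul_left_cancel₀ hmL this
  subst hPP
  by_contra hne
  rcases Nat.lt_or_gt_of_ne hne with hlt | hlt
  · -- P ^ m = e * P ^ m', m < m'
    apply hP
    apply mem_pPow_of_pow_mem (j := m' - m) (by omega) (by omega)
    have : P' ^ (m' - m) = e⁻¹ := by
      have h2 : P' ^ m' = P' ^ (m' - m) * P' ^ m := by rw [← pow_add]; congr 1; omega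
      rw [h2] at h0e
      have h3 : P' ^ m ≠ 0 := pow_ne_zero _ hP0
      field_simp
      have : P' ^ m * 1 = P' ^ m * (e * P' ^ (m' - m)) := by rw [mul_one]; linear_combination h0e
      have := mul_left_cancel₀ h3 this
      linear_combination -this
    rw [this]
    exact inv_mem he
  · apply hP
    apply mem_pPow_of_pow_mem (j := m - m') (by omega) (by omega)
    have : P' ^ (m - m') = e := by
      have h2 : P' ^ m = P' ^ (m - m') * P' ^ m' := by rw [← pow_add]; congr 1; omega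
      rw [h2] at h0e
      have h3 : P' ^ m' ≠ 0 := pow_ne_zero _ hP0
      exact mul_right_cancel₀ h3 h0e
    rw [this]
    exact he

end PL

/-! ### The line property, exponents -/

/-- The conclusion of the line lemma for the pair `(f, g)` with exponent `m`. -/
def LineAt (t : K → L) (m : ℕ) (f g : K) : Prop :=
  ∃ (P Q : L) (lam : K → L), (∀ c ∈ pPow (L := K) p, lam c ∈ pPow (L := L) p) ∧
    (∀ c ∈ pPow (L := K) p,
      PRel p (t (f + c)) ((P + lam c) ^ m) ∧ PRel p (t (g - c)) ((Q - lam c) ^ m)) ∧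
    PRel p (t (f + g)) ((P + Q) ^ m)

/-- The conclusion of the line lemma for the pair `(f, g)` with exponent `1`. -/
def LineOne (t : K → L) (f g : K) : Prop :=
  ∃ (P Q : L) (lam : K → L), (∀ c ∈ pPow (L := K) p, lam c ∈ pPow (L := L) p) ∧
    (∀ c ∈ pPow (L := K) p, PRel p (t (f + c)) (P + lam c) ∧ PRel p (t (g - c)) (Q - lam c)) ∧
    PRel p (t (f + g)) (P + Q)

/-- `m` is an exponent of `f`: `t f ~ P ^ m` and `t (f + 1) ~ (P + 1) ^ m` for some `P`. -/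
def HasExp (t : K → L) (f : K) (m : ℕ) : Prop :=
  ∃ P : L, PRel p (t f) (P ^ m) ∧ PRel p (t (f + 1)) ((P + 1) ^ m)

section Line

variable {p}
variable {t : K → L}

/-- Injectivity of `t` modulo `p`-th powers. -/
theorem div_mem_of_prel (T1 : ∀ u, u ≠ 0 → t u ≠ 0)
    (T2 : ∀ u v, u ≠ 0 → v ≠ 0 → PRel p (t (u * v)) (t u * t v))
    (T3 : ∀ u, u ≠ 0 → (t u ∈ pPow (L := L) p ↔ u ∈ pPow (L := K) p))
    {u v : K} (hu : u ≠ 0) (hv : v ≠ 0) (h : PRel p (t u) (t v)) : u / v ∈ pPow (L := K) p := by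
  have huv : u / v ≠ 0 := div_ne_zero hu hv
  have h2 := T2 (u / v) v huv hv
  rw [div_mul_cancel₀ u hv] at h2
  obtain ⟨e1, he1, he10, h1⟩ := h2
  obtain ⟨e2, he2, _, h3⟩ := h
  have htv : t v ≠ 0 := T1 v hv
  have : t (u / v) = e1⁻¹ * e2 := by
    have h4 : e1 * t (u / v) * t v = e2 * t v := by rw [← h3, h1]; ring
    have h5 := mul_right_cancel₀ htv h4
    field_simp
    linear_combination h5
  refine (T3 (u / v) huv).1 ?_
  rw [this]
  exact mul_mem (inv_mem he1) he2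

theorem not_prel_add_one (T1 : ∀ u, u ≠ 0 → t u ≠ 0)
    (T2 : ∀ u v, u ≠ 0 → v ≠ 0 → PRel p (t (u * v)) (t u * t v))
    (T3 : ∀ u, u ≠ 0 → (t u ∈ pPow (L := L) p ↔ u ∈ pPow (L := K) p))
    {f : K} (hf0 : f ≠ 0) (hf : t f ∉ pPow (L := L) p) : ¬ PRel p (t (f + 1)) (t f) := by
  intro h
  have hfK : f ∉ pPow (L := K) p := fun h' => hf ((T3 f hf0).2 h')
  have hf1 : f + 1 ≠ 0 := by
    intro h'
    apply hfK
    have : f = -1 := by linear_combination h'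
    rw [this]
    exact neg_mem (one_mem _)
  have h1 := div_mem_of_prel T1 T2 T3 hf1 hf0 h
  apply hfK
  have h2 : f⁻¹ = (f + 1) / f - 1 := by field_simp; ring
  have h3 : f⁻¹ ∈ pPow (L := K) p := by
    rw [h2]
    exact sub_mem h1 (one_mem _)
  have := inv_mem h3
  rwa [inv_inv] at this

omit [CharP K p] in
theorem hasExp_unique {f : K} (hf : t f ∉ pPow (L := L) p) {m m' : ℕ} (hm : 0 < m) (hmp : m < p)
    (hm' : 0 < m') (hm'p : m' < p) (h : HasExp p t f m) (h' : HasExp p t f m') : m = m' := by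
  obtain ⟨P, h0, h1⟩ := h
  obtain ⟨P', h0', h1'⟩ := h'
  have hP : P ∉ pPow (L := L) p := fun hP => hf (h0.mem_pPow_iff.2 (pow_mem hP m))
  exact exp_unique hm hmp hm' hm'p hP (h0.symm.trans h0') (h1.symm.trans h1')

theorem LineAt.hasExp_left (T1 : ∀ u, u ≠ 0 → t u ≠ 0)
    (T2 : ∀ u v, u ≠ 0 → v ≠ 0 → PRel p (t (u * v)) (t u * t v))
    (T3 : ∀ u, u ≠ 0 → (t u ∈ pPow (L := L) p ↔ u ∈ pPow (L := K) p))
    {f g : K} {m : ℕ} (hf0 : f ≠ 0) (hf : t f ∉ pPow (L := L) p) (h : LineAt p t m f g) :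
    HasExp p t f m := by
  obtain ⟨P, Q, lam, hlam, hc, -⟩ := h
  have h0 := (hc 0 (zero_mem _)).1
  rw [add_zero] at h0
  have h1 := (hc 1 (one_mem _)).1
  have hd : lam 1 - lam 0 ∈ pPow (L := L) p := sub_mem (hlam 1 (one_mem _)) (hlam 0 (zero_mem _))
  have hd0 : lam 1 - lam 0 ≠ 0 := by
    intro h'
    have h2 : lam 1 = lam 0 := by linear_combination h'
    rw [h2] at h1
    exact not_prel_add_one T1 T2 T3 hf0 hf (h1.trans h0.symm)
  set d := lam 1 - lam 0 with hddef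
  refine ⟨(P + lam 0) / d, h0.trans ?_, h1.trans ?_⟩
  · refine ⟨d ^ m, pow_mem hd m, pow_ne_zero m hd0, ?_⟩
    rw [← mul_pow]
    congr 1
    field_simp
  · refine ⟨d ^ m, pow_mem hd m, pow_ne_zero m hd0, ?_⟩
    rw [← mul_pow]
    congr 1
    field_simp
    rw [hddef]
    ring

theorem LineAt.hasExp_right (T1 : ∀ u, u ≠ 0 → t u ≠ 0)
    (T2 : ∀ u v, u ≠ 0 → v ≠ 0 → PRel p (t (u * v)) (t u * t v))
    (T3 : ∀ u, u ≠ 0 → (t u ∈ pPow (L := L) p ↔ u ∈ pPow (L := K) p))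
    {f g : K} {m : ℕ} (hg0 : g ≠ 0) (hg : t g ∉ pPow (L := L) p) (h : LineAt p t m f g) :
    HasExp p t g m := by
  obtain ⟨P, Q, lam, hlam, hc, -⟩ := h
  have h0 := (hc 0 (zero_mem _)).2
  rw [sub_zero] at h0
  have h1 := (hc (-1) (neg_mem (one_mem _))).2
  rw [sub_neg_eq_add] at h1
  have hd : lam 0 - lam (-1) ∈ pPow (L := L) p :=
    sub_mem (hlam 0 (zero_mem _)) (hlam (-1) (neg_mem (one_mem _)))
  have hd0 : lam 0 - lam (-1) ≠ 0 := by
    intro h'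
    have h2 : lam (-1) = lam 0 := by linear_combination -h'
    rw [h2] at h1
    exact not_prel_add_one T1 T2 T3 hg0 hg (h1.trans h0.symm)
  set d := lam 0 - lam (-1) with hddef
  refine ⟨(Q - lam 0) / d, h0.trans ?_, h1.trans ?_⟩
  · refine ⟨d ^ m, pow_mem hd m, pow_ne_zero m hd0, ?_⟩
    rw [← mul_pow]
    congr 1
    field_simp
  · refine ⟨d ^ m, pow_mem hd m, pow_ne_zero m hd0, ?_⟩
    rw [← mul_pow]
    congr 1
    field_simp
    rw [hddef]
    ring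

/-- `L` is not the union of two subfields `L^p(x)`, `L^p(x')`. -/
theorem exists_common_partner (hpart : ∀ x : L, x ∉ pPow (L := L) p → ∃ y, y ∉ pAdj p x)
    {x x' : L} (hx : x ∉ pPow (L := L) p) (hx' : x' ∉ pPow (L := L) p) :
    ∃ y, y ∉ pAdj p x ∧ y ∉ pAdj p x' := by
  obtain ⟨y1, hy1⟩ := hpart x hx
  obtain ⟨y2, hy2⟩ := hpart x' hx'
  by_cases h1 : y1 ∈ pAdj p x'
  · by_cases h2 : y2 ∈ pAdj p x
    · refine ⟨y1 + y2, fun h => hy1 ?_, fun h => hy2 ?_⟩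
      · have := sub_mem h h2
        rwa [add_sub_cancel_right] at this
      · have := sub_mem h h1
        rwa [add_sub_cancel_left] at this
    · exact ⟨y2, h2, hy2⟩
  · exact ⟨y1, hy1, h1⟩

omit [CharP K p] in
/-- A partner in `L` can be realised as `t g`. -/
theorem exists_elt_notMem (T4 : ∀ y : L, y ≠ 0 → ∃ g, g ≠ 0 ∧ PRel p (t g) y) {y : L}
    (x x' : L) (hy : y ∉ pAdj p x) (hy' : y ∉ pAdj p x') :
    ∃ g, g ≠ 0 ∧ t g ∉ pAdj p x ∧ t g ∉ pAdj p x' := by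
  have hy0 : y ≠ 0 := fun h => hy (h ▸ zero_mem _)
  obtain ⟨g, hg0, hg⟩ := T4 y hy0
  exact ⟨g, hg0, fun h => hy (hg.mem_pAdj_iff.1 h), fun h => hy' (hg.mem_pAdj_iff.1 h)⟩

/-- **A1.** The exponent of the line lemma is one global constant. -/
theorem exists_global_exp (T1 : ∀ u, u ≠ 0 → t u ≠ 0)
    (T2 : ∀ u v, u ≠ 0 → v ≠ 0 → PRel p (t (u * v)) (t u * t v))
    (T3 : ∀ u, u ≠ 0 → (t u ∈ pPow (L := L) p ↔ u ∈ pPow (L := K) p))
    (T4 : ∀ y : L, y ≠ 0 → ∃ g, g ≠ 0 ∧ PRel p (t g) y)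
    (hpart : ∀ x : L, x ∉ pPow (L := L) p → ∃ y, y ∉ pAdj p x)
    (hnp : ∃ x : L, x ∉ pPow (L := L) p)
    (hline : ∀ f g, f ≠ 0 → g ≠ 0 → PIndep p (t f) (t g) →
      ∃ m : ℕ, 0 < m ∧ m < p ∧ LineAt p t m f g) :
    ∃ m : ℕ, 0 < m ∧ m < p ∧
      ∀ f g, f ≠ 0 → g ≠ 0 → PIndep p (t f) (t g) → LineAt p t m f g := by
  -- a base element `f₀` with a partner `g₀`
  obtain ⟨x₀, hx₀⟩ := hnp
  have hx₀0 : x₀ ≠ 0 := fun h => hx₀ (h ▸ zero_mem _)
  obtain ⟨f₀, hf₀0, hf₀x⟩ := T4 x₀ hx₀0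
  have hf₀ : t f₀ ∉ pPow (L := L) p := fun h => hx₀ (hf₀x.mem_pPow_iff.1 h)
  obtain ⟨y₀, hy₀⟩ := hpart (t f₀) hf₀
  obtain ⟨g₀, hg₀0, hg₀, -⟩ := exists_elt_notMem T4 (t f₀) (t f₀) hy₀ hy₀
  obtain ⟨m₀, hm₀, hm₀p, hL₀⟩ := hline f₀ g₀ hf₀0 hg₀0 ⟨hf₀, hg₀⟩
  have hE₀ : HasExp p t f₀ m₀ := hL₀.hasExp_left T1 T2 T3 hf₀0 hf₀
  refine ⟨m₀, hm₀, hm₀p, fun f g hf0 hg0 hfg => ?_⟩
  obtain ⟨m, hm, hmp, hL⟩ := hline f g hf0 hg0 hfg
  have hE : HasExp p t f m := hL.hasExp_left T1 T2 T3 hf0 hfg.1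
  -- a common partner `h` of `f` and `f₀`
  obtain ⟨y, hy, hy'⟩ := exists_common_partner hpart hfg.1 hf₀
  obtain ⟨h, hh0, hh, hh'⟩ := exists_elt_notMem T4 (t f) (t f₀) hy hy'
  have hhp : t h ∉ pPow (L := L) p := fun h' => hh (pPow_le_pAdj p (t f) h')
  obtain ⟨m₁, hm₁, hm₁p, hL₁⟩ := hline f h hf0 hh0 ⟨hfg.1, hh⟩
  obtain ⟨m₂, hm₂, hm₂p, hL₂⟩ := hline f₀ h hf₀0 hh0 ⟨hf₀, hh'⟩
  have e1 : m = m₁ := hasExp_unique hfg.1 hm hmp hm₁ hm₁p hE (hL₁.hasExp_left T1 T2 T3 hf0 hfg.1)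
  have e2 : m₁ = m₂ := hasExp_unique hhp hm₁ hm₁p hm₂ hm₂p
    (hL₁.hasExp_right T1 T2 T3 hh0 hhp) (hL₂.hasExp_right T1 T2 T3 hh0 hhp)
  have e3 : m₂ = m₀ := hasExp_unique hf₀ hm₂ hm₂p hm₀ hm₀p
    (hL₂.hasExp_left T1 T2 T3 hf₀0 hf₀) hE₀
  have : m = m₀ := by rw [e1, e2, e3]
  rw [← this]
  exact hL

end Line

/-! ### Normalisation: `t' u := t u ^ m'` with `m * m' ≡ 1 [MOD p]` -/

section Norm

variable {p}
variable {t : K → L} {m m' : ℕ}

theorem prel_pow_pow (hmm : m * m' % p = 1) (z : L) : PRel p ((z ^ m) ^ m') z := by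
  rw [← pow_mul]
  exact prel_pow_of_mod hmm z

theorem prel_pow_pow' (hmm : m * m' % p = 1) (z : L) : PRel p ((z ^ m') ^ m) z := by
  rw [← pow_mul, mul_comm]
  exact prel_pow_of_mod hmm z

/-- Back from the normalised map: `t u ^ m' ~ w` gives `t u ~ w ^ m`. -/
theorem prel_of_norm (hmm : m * m' % p = 1) {z w : L} (h : PRel p (z ^ m') w) :
    PRel p z (w ^ m) :=
  (prel_pow_pow' hmm z).symm.trans (h.pow m)

theorem norm_ne_zero (T1 : ∀ u, u ≠ 0 → t u ≠ 0) (u : K) (hu : u ≠ 0) : t u ^ m' ≠ 0 :=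
  pow_ne_zero _ (T1 u hu)

omit [CharP K p] in
theorem norm_mul (T2 : ∀ u v, u ≠ 0 → v ≠ 0 → PRel p (t (u * v)) (t u * t v)) (u v : K)
    (hu : u ≠ 0) (hv : v ≠ 0) : PRel p (t (u * v) ^ m') (t u ^ m' * t v ^ m') := by
  have := (T2 u v hu hv).pow m'
  rwa [mul_pow] at this

theorem norm_pow_iff (hmm : m * m' % p = 1)
    (T3 : ∀ u, u ≠ 0 → (t u ∈ pPow (L := L) p ↔ u ∈ pPow (L := K) p)) (u : K) (hu : u ≠ 0) :
    t u ^ m' ∈ pPow (L := L) p ↔ u ∈ pPow (L := K) p := by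
  rw [← T3 u hu]
  constructor
  · intro h
    exact (prel_pow_pow' hmm (t u)).mem_pPow_iff.1 (pow_mem h m)
  · intro h
    exact pow_mem h m'

omit [CharP K p] in
theorem norm_surj (hmm : m * m' % p = 1) (T4 : ∀ y : L, y ≠ 0 → ∃ g, g ≠ 0 ∧ PRel p (t g) y)
    (y : L) (hy : y ≠ 0) : ∃ g, g ≠ 0 ∧ PRel p (t g ^ m') y := by
  obtain ⟨g, hg0, hg⟩ := T4 (y ^ m) (pow_ne_zero _ hy)
  exact ⟨g, hg0, (hg.pow m').trans (prel_pow_pow hmm y)⟩

theorem pIndep_of_norm (hmm : m * m' % p = 1) {x y : L} (h : PIndep p (x ^ m') (y ^ m')) :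
    PIndep p x y := by
  refine ⟨fun hx => h.1 (pow_mem hx m'), fun hy => h.2 ?_⟩
  have hx : x ∈ pAdj p (x ^ m') :=
    (prel_pow_pow' hmm x).symm.mem_pAdj (pow_mem (self_mem_pAdj p (x ^ m')) m)
  exact pAdj_le_of_mem hx (pow_mem hy m')

theorem LineAt.norm (hmm : m * m' % p = 1) {f g : K} (h : LineAt p t m f g) :
    LineOne p (fun u => t u ^ m') f g := by
  obtain ⟨P, Q, lam, hlam, hc, hfg⟩ := h
  refine ⟨P, Q, lam, hlam, fun c hcK => ⟨?_, ?_⟩, ?_⟩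
  · exact ((hc c hcK).1.pow m').trans (prel_pow_pow hmm _)
  · exact ((hc c hcK).2.pow m').trans (prel_pow_pow hmm _)
  · exact (hfg.pow m').trans (prel_pow_pow hmm _)

/-- **AS1.** From the line lemma with pair-dependent exponents: one global exponent `m`, and
`t' u := t u ^ m'` (`m * m' ≡ 1 [MOD p]`) satisfies all hypotheses with exponent `1`. -/
theorem exists_normalisation (T1 : ∀ u, u ≠ 0 → t u ≠ 0)
    (T2 : ∀ u v, u ≠ 0 → v ≠ 0 → PRel p (t (u * v)) (t u * t v))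
    (T3 : ∀ u, u ≠ 0 → (t u ∈ pPow (L := L) p ↔ u ∈ pPow (L := K) p))
    (T4 : ∀ y : L, y ≠ 0 → ∃ g, g ≠ 0 ∧ PRel p (t g) y)
    (hpart : ∀ x : L, x ∉ pPow (L := L) p → ∃ y, y ∉ pAdj p x)
    (hnp : ∃ x : L, x ∉ pPow (L := L) p)
    (hline : ∀ f g, f ≠ 0 → g ≠ 0 → PIndep p (t f) (t g) →
      ∃ m : ℕ, 0 < m ∧ m < p ∧ LineAt p t m f g) :
    ∃ m m' : ℕ, 0 < m ∧ m < p ∧ m * m' % p = 1 ∧
      (∀ u, u ≠ 0 → t u ^ m' ≠ 0) ∧
      (∀ u v, u ≠ 0 → v ≠ 0 → PRel p (t (u * v) ^ m') (t u ^ m' * t v ^ m')) ∧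
      (∀ u, u ≠ 0 → (t u ^ m' ∈ pPow (L := L) p ↔ u ∈ pPow (L := K) p)) ∧
      (∀ y : L, y ≠ 0 → ∃ g, g ≠ 0 ∧ PRel p (t g ^ m') y) ∧
      (∀ f g, f ≠ 0 → g ≠ 0 → PIndep p (t f ^ m') (t g ^ m') →
        LineOne p (fun u => t u ^ m') f g) ∧
      (∀ (u : K) (w : L), PRel p (t u ^ m') w → PRel p (t u) (w ^ m)) := by
  have hp : p.Prime := Fact.out
  obtain ⟨m, hm, hmp, hglob⟩ := exists_global_exp T1 T2 T3 T4 hpart hnp hline
  have hcop : Nat.Coprime m p := (Nat.coprime_of_lt_prime hm.ne' hmp hp).symm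
  obtain ⟨m', -, hmm⟩ := Nat.exists_mul_mod_eq_one_of_coprime hcop hp.one_lt
  refine ⟨m, m', hm, hmp, hmm, norm_ne_zero T1, norm_mul T2, norm_pow_iff hmm T3,
    norm_surj hmm T4, fun f g hf0 hg0 hfg => ?_, fun u w h => prel_of_norm hmm h⟩
  exact (hglob f g hf0 hg0 (pIndep_of_norm hmm hfg)).norm hmm

end Norm

end Crest.Agent.Helper47.S0010
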