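import Crest.Agent.Helper19.S0010.ASBasic
import Crest.Agent.Helper47.S0010.AS1

/-!
# S0010, block AS1 in the shape of `Crest/Agent/Helper19/S0010/ASSpec.lean`

`exists_normLine : LineData p t → ∃ m m', 0 < m ∧ m < p ∧ m * m' ≡ 1 [MOD p] ∧
  NormLine p (fun u => t u ^ m')`, with `LineData`, `NormLine` of `Crest.Agent.Helper19.S0010`.
The definitions of `pPow`, `pAdj`, `PRel`, `PIndep` there unfold to the same terms as the ones
used in `AS1.lean`, so this file is only a repackaging of `exists_normalisation`.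
-/

set_option autoImplicit false

namespace Crest.Agent.Helper47.S0010

variable {K L : Type*} [Field K] [Field L] {p : ℕ} [Fact p.Prime] [CharP K p] [CharP L p]

/-- **AS1** in the shape of the assembly spec (track 1). -/
theorem exists_normLine {t : K → L} (h : Crest.Agent.Helper19.S0010.LineData p t) :
    ∃ m m' : ℕ, 0 < m ∧ m < p ∧ m * m' ≡ 1 [MOD p] ∧
      Crest.Agent.Helper19.S0010.NormLine p (fun u => t u ^ m') := by
  have hp : p.Prime := Fact.out
  obtain ⟨m, m', hm, hmp, hmm, n1, n2, n3, n4, n5, -⟩ :=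
    exists_normalisation (p := p) (t := t) h.ne_zero h.mul h.pow_iff h.surj h.partner
      h.nonperfect (by
        intro f g hf hg hfg
        obtain ⟨m, hm, hmp, P, Q, lam, h1, h2, h3⟩ := h.line f g hf hg hfg
        exact ⟨m, hm, hmp, P, Q, lam, h1, h2, h3⟩)
  refine ⟨m, m', hm, hmp, ?_, ⟨n1, n2, n3, n4, h.partner, h.nonperfect, ?_⟩⟩
  · show m * m' % p = 1 % p
    rw [hmm, Nat.mod_eq_of_lt hp.one_lt]
  · intro f g hf hg hfg
    obtain ⟨P, Q, lam, h1, h2, h3⟩ := n5 f g hf hg hfg
    exact ⟨P, Q, lam, h1, h2, h3⟩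

/-- The way back from the normalised map (for the final statement of the assembly):
if `m * m' ≡ 1 [MOD p]` and `t u ^ m' ~ w` then `t u ~ w ^ m`. -/
theorem prel_pow_of_normalised {m m' : ℕ} (hmm : m * m' ≡ 1 [MOD p]) {z w : L}
    (h : Crest.Agent.Helper19.S0010.PRel p (z ^ m') w) :
    Crest.Agent.Helper19.S0010.PRel p z (w ^ m) := by
  have hp : p.Prime := Fact.out
  have hmm' : m * m' % p = 1 := by
    have : m * m' % p = 1 % p := hmm
    rwa [Nat.mod_eq_of_lt hp.one_lt] at this
  exact prel_of_norm hmm' h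

end Crest.Agent.Helper47.S0010
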